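import Mathlib

namespace Vale.Agent.Results.P038.CliqueFreeRatio

open Finset

/-- First out-neighbourhood of `v`. -/
def outN {V : Type*} [Fintype V] (adj : V → V → Prop) [DecidableRel adj] (v : V) : Finset V :=
  univ.filter (fun u => adj v u)

/-- Second out-neighbourhood of `v`: vertices at directed distance exactly two. -/
def outN2 {V : Type*} [Fintype V] [DecidableEq V] (adj : V → V → Prop) [DecidableRel adj]
    (v : V) : Finset V :=
  univ.filter (fun w => w ≠ v ∧ ¬ adj v w ∧ ∃ u, adj v u ∧ adj u w)

section aux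

variable {V : Type*} [Fintype V] [DecidableEq V] (adj : V → V → Prop) [DecidableRel adj]

/-- underlying graph induced on a finset -/
def under (hasym : ∀ u v, adj u v → ¬ adj v u) (A : Finset V) : SimpleGraph A where
  Adj x y := adj x y ∨ adj y x
  symm := ⟨fun _ _ h => Or.symm h⟩
  loopless := ⟨fun x h => by rcases h with h | h <;> exact hasym _ _ h h⟩

instance (hasym : ∀ u v, adj u v → ¬ adj v u) (A : Finset V) :
    DecidableRel (under adj hasym A).Adj := fun x y => by
  unfold under; infer_instance

lemma turan_bound {W : Type*} [Fintype W] [DecidableEq W] (G : SimpleGraph W) [DecidableRel G.Adj]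
    (r : ℕ) (cf : G.CliqueFree (r + 1)) :
    2 * r * #G.edgeFinset ≤ (r - 1) * (Fintype.card W) ^ 2 := by
  have h1 := cf.card_edgeFinset_le
  simp only at h1
  rw [← SimpleGraph.card_edgeFinset_turanGraph] at h1
  calc 2 * r * #G.edgeFinset ≤ 2 * r * #(SimpleGraph.turanGraph (Fintype.card W) r).edgeFinset :=
        Nat.mul_le_mul_left _ h1
    _ ≤ _ := SimpleGraph.mul_card_edgeFinset_turanGraph_le


omit [Fintype V] in
lemma sum_out_eq_edges (hasym : ∀ u v, adj u v → ¬ adj v u) (A : Finset V) :
    ∑ x : A, #(univ.filter (fun y : A => adj x y)) = #(under adj hasym A).edgeFinset := by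
  have hdeg : ∀ x : A, (under adj hasym A).degree x =
      #(univ.filter (fun y : A => adj x y)) + #(univ.filter (fun y : A => adj y x)) := by
    intro x
    rw [← card_union_of_disjoint]
    · rw [← SimpleGraph.card_neighborFinset_eq_degree]
      congr 1
      ext y
      simp only [SimpleGraph.mem_neighborFinset, mem_union, mem_filter, mem_univ, true_and]
      rfl
    · rw [disjoint_left]
      intro y hy hy'
      simp only [mem_filter, mem_univ, true_and] at hy hy'
      exact hasym _ _ hy hy'
  have hswap : ∑ x : A, #(univ.filter (fun y : A => adj y x))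
      = ∑ x : A, #(univ.filter (fun y : A => adj x y)) := by
    simp only [card_filter]
    rw [sum_comm]
  have h2 := (under adj hasym A).sum_degrees_eq_twice_card_edges
  simp only [hdeg, sum_add_distrib, hswap] at h2
  omega

lemma exists_small_out (hasym : ∀ u v, adj u v → ¬ adj v u) (r : ℕ) (hr : 2 ≤ r)
    (hfree : ∀ s : Finset V, #s = r + 1 → ∃ x ∈ s, ∃ y ∈ s, x ≠ y ∧ ¬ adj x y ∧ ¬ adj y x)
    (v : V) (hne : (outN adj v).Nonempty) :
    ∃ x ∈ outN adj v, 2 * (r - 1) * #(outN adj x ∩ outN adj v) ≤ (r - 2) * #(outN adj v) := by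
  have hmem : ∀ a, a ∈ outN adj v ↔ adj v a := by
    intro a; simp [outN]
  have cf : (under adj hasym (outN adj v)).CliqueFree ((r - 1) + 1) := by
    intro s hs
    rw [SimpleGraph.isNClique_iff] at hs
    obtain ⟨hcl, hcard⟩ := hs
    have hvs : v ∉ s.map (Function.Embedding.subtype _) := by
      intro hv
      simp only [mem_map, Function.Embedding.coe_subtype] at hv
      obtain ⟨⟨a, ha⟩, _, hav⟩ := hv
      simp only at hav
      rw [hmem, hav] at ha
      exact hasym _ _ ha ha
    obtain ⟨x, hx, y, hy, hxy, h1, h2⟩ := hfree (insert v (s.map (Function.Embedding.subtype _)))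
      (by rw [card_insert_of_notMem hvs, card_map, hcard]; omega)
    simp only [mem_insert, mem_map, Function.Embedding.coe_subtype] at hx hy
    rcases hx with hxv | ⟨⟨a, ha⟩, has, hax⟩
    · rcases hy with hyv | ⟨⟨b, hb⟩, hbs, hby⟩
      · exact hxy (hxv.trans hyv.symm)
      · simp only at hby
        rw [hmem, hby, ← hxv] at hb
        exact h1 hb
    · rcases hy with hyv | ⟨⟨b, hb⟩, hbs, hby⟩
      · simp only at hax
        rw [hmem, hax, ← hyv] at ha
        exact h2 ha
      · simp only at hax hby
        have := hcl has hbs (by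
          intro h; apply hxy; rw [← hax, ← hby]; exact congrArg Subtype.val h)
        rcases this with h | h
        · simp only [hax, hby] at h; exact h1 h
        · simp only [hax, hby] at h; exact h2 h
  have hT := turan_bound (under adj hasym (outN adj v)) (r - 1) cf
  rw [← sum_out_eq_edges, Fintype.card_coe] at hT
  by_contra hcon
  push Not at hcon
  have hlt : ∀ x : (outN adj v), (r - 2) * #(outN adj v)
      < 2 * (r - 1) * #(univ.filter (fun y : (outN adj v) => adj x y)) := by
    intro x
    have := hcon x.1 x.2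
    have heq : (univ.filter (fun y : (outN adj v) => adj x y))
        = (outN adj x.1).subtype (· ∈ outN adj v) := by
      ext y
      have hm : (y : V) ∈ outN adj x.1 ↔ adj x.1 y := by simp [outN]
      rw [mem_subtype, hm]
      simp only [mem_filter, mem_univ, true_and]
    rw [heq, card_subtype, filter_mem_eq_inter]; exact this
  have hsum : ∑ _x : (outN adj v), (r - 2) * #(outN adj v)
      < ∑ x : (outN adj v), 2 * (r - 1) * #(univ.filter (fun y : (outN adj v) => adj x y)) := by
    apply sum_lt_sum_of_nonempty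
    · obtain ⟨a, ha⟩ := hne
      exact ⟨⟨a, ha⟩, mem_univ _⟩
    · intro x _; exact hlt x
  have e2 : ∑ x : (outN adj v), 2 * (r - 1) * #(univ.filter (fun y : (outN adj v) => adj x y))
      = 2 * (r - 1) * ∑ x : (outN adj v), #(univ.filter (fun y : (outN adj v) => adj x y)) :=
    (mul_sum _ _ _).symm
  rw [e2] at hsum
  simp only [sum_const, card_univ, Fintype.card_coe, smul_eq_mul] at hsum
  have : (r - 1 - 1) = r - 2 := by omega
  rw [this] at hT
  nlinarith

end aux

/-- If the underlying graph of a nonempty finite oriented graph has no `r + 1` mutually adjacent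
vertices (`r ≥ 2`), some vertex `v` satisfies `|N₂(v)| ≥ r / (2 (r - 1)) * |N₁(v)|`. -/
theorem result {V : Type*} [Fintype V] [DecidableEq V] [Nonempty V] (adj : V → V → Prop)
    [DecidableRel adj] (hasym : ∀ u v, adj u v → ¬ adj v u) (r : ℕ) (hr : 2 ≤ r)
    (hfree : ∀ s : Finset V, #s = r + 1 → ∃ x ∈ s, ∃ y ∈ s, x ≠ y ∧ ¬ adj x y ∧ ¬ adj y x) :
    ∃ v, r * #(outN adj v) ≤ 2 * (r - 1) * #(outN2 adj v) := by
  obtain ⟨v, -, hv⟩ := exists_min_image univ (fun v => #(outN adj v)) ⟨Classical.arbitrary V, mem_univ _⟩
  refine ⟨v, ?_⟩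
  rcases (outN adj v).eq_empty_or_nonempty with h0 | hne
  · simp [h0]
  obtain ⟨x, hx, hxs⟩ := exists_small_out adj hasym r hr hfree v hne
  have hsub : outN adj x \ outN adj v ⊆ outN2 adj v := by
    intro w hw
    simp only [mem_sdiff, outN, mem_filter, mem_univ, true_and] at hw hx
    simp only [outN2, mem_filter, mem_univ, true_and]
    refine ⟨?_, hw.2, x, hx, hw.1⟩
    rintro rfl
    exact hasym _ _ hx hw.1
  have h1 := card_le_card hsub
  have h2 := card_sdiff_add_card_inter (outN adj x) (outN adj v)
  have h3 := hv x (mem_univ _)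
  obtain ⟨k, rfl⟩ : ∃ k, r = k + 2 := ⟨r - 2, by omega⟩
  simp only [Nat.add_sub_cancel] at hxs ⊢
  have e1 : k + 2 - 1 = k + 1 := by omega
  rw [e1] at hxs ⊢
  nlinarith

end Vale.Agent.Results.P038.CliqueFreeRatio
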