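import Mathlib

namespace Vale.Agent.Results.P038.NearThreshold

open Finset

/-- First out-neighbourhood of `v`. -/
def outN {V : Type*} [Fintype V] (adj : V → V → Prop) [DecidableRel adj] (v : V) : Finset V :=
  univ.filter (fun u => adj v u)

/-- Second out-neighbourhood of `v`: vertices at directed distance exactly two. -/
def outN2 {V : Type*} [Fintype V] [DecidableEq V] (adj : V → V → Prop) [DecidableRel adj]
    (v : V) : Finset V :=
  univ.filter (fun w => w ≠ v ∧ ¬ adj v w ∧ ∃ u, adj v u ∧ adj u w)

/-- `a` and `b` are distinct and joined by no arc (a missing edge). -/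
def Missing {V : Type*} (adj : V → V → Prop) (a b : V) : Prop :=
  a ≠ b ∧ ¬ adj a b ∧ ¬ adj b a

/-- `b` is reached from `v` by a directed path of length one or two. -/
def Near {V : Type*} (adj : V → V → Prop) (v b : V) : Prop :=
  adj v b ∨ ∃ m, adj v m ∧ adj m b

section lists

variable {V : Type*}

/-- total weight of the ordered pairs (earlier, later) of a list -/
def score (ω : V → V → ℕ) : List V → ℕ
  | [] => 0
  | a :: l => (l.map (ω a)).sum + score ω l

lemma score_move_nil (ω : V → V → ℕ) (s : V) (B C : List V) :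
    score ω (s :: (B ++ C)) + (B.map (fun b => ω b s)).sum
      = score ω (B ++ s :: C) + (B.map (ω s)).sum := by
  induction B with
  | nil => simp
  | cons b B ih =>
    simp only [List.cons_append, score, List.map_cons, List.sum_cons, List.map_append,
      List.sum_append] at ih ⊢
    omega

lemma score_move (ω : V → V → ℕ) (A : List V) (s : V) (B C : List V) :
    score ω (A ++ s :: (B ++ C)) + (B.map (fun b => ω b s)).sum
      = score ω (A ++ (B ++ s :: C)) + (B.map (ω s)).sum := by
  induction A with
  | nil => simpa using score_move_nil ω s B C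
  | cons a A ih =>
    simp only [List.cons_append, score, List.map_cons, List.sum_cons, List.map_append,
      List.sum_append] at ih ⊢
    omega

lemma exists_opt [DecidableEq V] (ω : V → V → ℕ) (l0 : List V) :
    ∃ L : List V, L.Perm l0 ∧ ∀ L' : List V, L'.Perm l0 → score ω L' ≤ score ω L := by
  have hne : (l0.permutations.toFinset).Nonempty := ⟨l0, by simp⟩
  obtain ⟨L, hL, hmax⟩ := Finset.exists_max_image _ (score ω) hne
  refine ⟨L, by simpa using hL, fun L' hL' => hmax L' (by simpa using hL')⟩

lemma blocks (sep : V → Prop) (f g : V → ℕ) (hw : ∀ s, sep s → f s ≤ g s) (L0 : List V) (y : V)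
    (hblock : ∀ A B s C, L0 ++ [y] = A ++ (B ++ s :: C) → sep s → (∀ b ∈ B, ¬ sep b) →
      (B.map f).sum ≤ (B.map g).sum) (hy : sep y) :
    ∀ M A B, L0 = A ++ (B ++ M) → (∀ b ∈ B, ¬ sep b) →
      (B.map f).sum + (M.map f).sum ≤ (B.map g).sum + (M.map g).sum := by
  intro M
  induction M with
  | nil =>
    intro A B h hB
    have := hblock A B y [] (by rw [h]; simp) hy hB
    simpa using this
  | cons v M ih =>
    intro A B h hB
    by_cases hv : sep v
    · have h1 := hblock A B v (M ++ [y]) (by rw [h]; simp) hv hB
      have h2 := ih (A ++ (B ++ [v])) [] (by rw [h]; simp) (by simp)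
      have h3 := hw v hv
      simp only [List.map_cons, List.sum_cons, List.map_nil, List.sum_nil] at h2 ⊢
      omega
    · have h2 := ih A (B ++ [v]) (by rw [h]; simp) (by
        intro b hb
        rcases List.mem_append.1 hb with hb | hb
        · exact hB b hb
        · simp at hb; subst hb; exact hv)
      simp only [List.map_append, List.sum_append, List.map_cons, List.sum_cons, List.map_nil,
        List.sum_nil] at h2 ⊢
      omega

lemma sum_ind_le_one [DecidableEq V] (k : V) (B : List V) (hB : B.Nodup) :
    (B.map (fun v => if v = k then 1 else 0)).sum ≤ 1 := by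
  induction B with
  | nil => simp
  | cons b B ih =>
    have hb := List.nodup_cons.1 hB
    by_cases hbk : b = k
    · have hz : (B.map (fun v => if v = k then 1 else 0)).sum = 0 := by
        apply List.sum_eq_zero
        intro n hn
        obtain ⟨v, hv, rfl⟩ := List.mem_map.1 hn
        have : v ≠ k := by
          rintro rfl
          exact hb.1 (hbk ▸ hv)
        simp [this]
      simp [hbk, hz]
    · simpa [hbk] using ih hb.2

end lists

section core

variable {V : Type*} [Fintype V] [DecidableEq V] (adj : V → V → Prop) [DecidableRel adj]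

theorem core (hasym : ∀ u v, adj u v → ¬ adj v u) (x k : V) (hxk : adj x k)
    (hgood : ∀ a b, a ≠ x → b ≠ x → Missing adj a b →
      (∀ v, v ≠ x → adj v a → Near adj v b) ∨ (∀ v, v ≠ x → adj v b → Near adj v a)) :
    ∃ v, #(outN adj v) ≤ #(outN2 adj v) := by
  classical
  set F : V → V → Prop := fun z u =>
    z ≠ x ∧ u ≠ x ∧ ∃ y, y ≠ x ∧ adj y u ∧ z ≠ y ∧ ¬ Near adj y z with hF
  set T : V → V → Prop := fun a b => adj a b ∨ F a b with hT
  have hTasym : ∀ a b, T a b → ¬ T b a := by
    intro a b hab hba
    rcases hab with hab | ⟨hax, hbx, y, hyx, hyb, hay, hnya⟩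
    · rcases hba with hba | ⟨_, _, y, _, hya, _, hnyb⟩
      · exact hasym _ _ hab hba
      · exact hnyb (Or.inr ⟨a, hya, hab⟩)
    · rcases hba with hba | ⟨_, _, y', hy'x, hy'a, hby', hny'b⟩
      · exact hnya (Or.inr ⟨b, hyb, hba⟩)
      · have hmiss : Missing adj a b := by
          refine ⟨?_, ?_, ?_⟩
          · rintro rfl
            exact hnya (Or.inl hyb)
          · intro h
            exact hny'b (Or.inr ⟨a, hy'a, h⟩)
          · intro h
            exact hnya (Or.inr ⟨b, hyb, h⟩)
        rcases hgood a b hax hbx hmiss with h | h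
        · exact hny'b (h y' hy'x hy'a)
        · exact hnya (h y hyx hyb)
  set N := Fintype.card V with hN
  set ω : V → V → ℕ := fun a b => N * (if T a b then 1 else 0) + (if b = k then 1 else 0) with hω
  obtain ⟨L, hLperm, hLopt⟩ := exists_opt ω (univ.erase x).toList
  have hLnodup : L.Nodup := hLperm.nodup_iff.2 (Finset.nodup_toList _)
  have hLmem : ∀ v, v ∈ L ↔ v ≠ x := by
    intro v
    rw [hLperm.mem_iff]
    simp
  have hkx : k ≠ x := by
    rintro rfl
    exact hasym _ _ hxk hxk
  have hLne : L ≠ [] := by
    intro h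
    have := (hLmem k).2 hkx
    simp [h] at this
  obtain ⟨L0, y, hL0⟩ : ∃ L0 y, L = L0 ++ [y] := by
    rcases List.eq_nil_or_concat L with h | h
    · exact absurd h hLne
    · obtain ⟨l', b, h⟩ := h
      exact ⟨l', b, by simpa using h⟩
  have hyx : y ≠ x := (hLmem y).1 (by simp [hL0])
  set P := outN adj y with hP
  set Q := outN2 adj y with hQ
  have hmemP : ∀ v, v ∈ P ↔ adj y v := by
    intro v
    simp [hP, outN]
  have hmemQ : ∀ v, v ∈ Q ↔ (v ≠ y ∧ ¬ adj y v ∧ ∃ u, adj y u ∧ adj u v) := by
    intro v
    simp [hQ, outN2]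
  set sep : V → Prop := fun s => s ∉ P ∧ s ∉ Q with hsep
  have hysep : sep y := by
    refine ⟨?_, ?_⟩
    · rw [hmemP]
      exact fun h => hasym _ _ h h
    · rw [hmemQ]
      exact fun h => h.1 rfl
  -- the basic inequality for a block
  have key : ∀ A B s C, L0 ++ [y] = A ++ (B ++ s :: C) → sep s → (∀ b ∈ B, ¬ sep b) →
      N * (B.map (fun v => if v ∈ P then 1 else 0)).sum
        + (B.map (fun v => if v = k then 1 else 0)).sum
      ≤ N * (B.map (fun v => if v ∈ Q then 1 else 0)).sum
        + (B.map (fun _ => if s = k then 1 else 0)).sum := by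
    intro A B s C hdec hs hB
    have hperm : (A ++ s :: (B ++ C)).Perm (univ.erase x).toList := by
      refine List.Perm.trans ?_ hLperm
      rw [hL0, hdec]
      refine List.Perm.append_left A ?_
      exact (List.perm_middle).symm
    have hopt := hLopt _ hperm
    have hmove := score_move ω A s B C
    rw [← hdec, ← hL0] at hmove
    have h1 : (B.map (ω s)).sum ≤ (B.map (fun b => ω b s)).sum := by omega
    have hsL : s ∈ L := by
      rw [hL0, hdec]
      simp
    have hBL : ∀ b ∈ B, b ∈ L := by
      intro b hb
      rw [hL0, hdec]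
      simp [hb]
    have hPT : ∀ b ∈ B, b ∈ P → T s b := by
      intro b hb hbP
      rw [hmemP] at hbP
      by_cases hsy : s = y
      · subst hsy
        exact Or.inl hbP
      · refine Or.inr ⟨(hLmem s).1 hsL, (hLmem b).1 (hBL b hb), y, hyx, hbP, hsy, ?_⟩
        rintro (h | ⟨m, hm1, hm2⟩)
        · exact hs.1 ((hmemP s).2 h)
        · by_cases hys : adj y s
          · exact hs.1 ((hmemP s).2 hys)
          · exact hs.2 ((hmemQ s).2 ⟨hsy, hys, m, hm1, hm2⟩)
    have h2 : (B.map (fun v => N * (if v ∈ P then 1 else 0) + (if v = k then 1 else 0))).sum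
        ≤ (B.map (ω s)).sum := by
      apply List.sum_le_sum
      intro b hb
      simp only [hω]
      by_cases hbP : b ∈ P
      · simp [hbP, hPT b hb hbP]
      · simp [hbP]
    have h3 : (B.map (fun b => ω b s)).sum
        ≤ (B.map (fun v => N * (if v ∈ Q then 1 else 0) + (if s = k then 1 else 0))).sum := by
      apply List.sum_le_sum
      intro b hb
      simp only [hω]
      by_cases hbT : T b s
      · have hbQ : b ∈ Q := by
          by_contra hbQ
          have hbP : b ∈ P := by
            by_contra hbP
            exact hB b hb ⟨hbP, hbQ⟩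
          exact hTasym _ _ hbT (hPT b hb hbP)
        simp [hbT, hbQ]
      · simp [hbT]
    have h4 := h2.trans (h1.trans h3)
    rw [List.sum_map_add, List.sum_map_add, List.sum_map_mul_left, List.sum_map_mul_left] at h4
    exact h4
  have hlen : ∀ A B s C, L0 ++ [y] = A ++ (B ++ s :: C) → B.length < N := by
    intro A B s C hdec
    have h1 : L.length ≤ N := hLnodup.length_le_card
    rw [hL0, hdec] at h1
    simp only [List.length_append, List.length_cons] at h1
    omega
  have hBnodup : ∀ A B s C, L0 ++ [y] = A ++ (B ++ s :: C) → B.Nodup := by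
    intro A B s C hdec
    have h1 := hLnodup
    rw [hL0, hdec] at h1
    exact h1.of_append_right.of_append_left
  have hsumL : ∀ f : V → ℕ, (L.map f).sum = ∑ v ∈ univ.erase x, f v := by
    intro f
    rw [(hLperm.map f).sum_eq, Finset.sum_map_toList]
  have hNpos : 0 < N := Fintype.card_pos_iff.2 ⟨x⟩
  have hcardP : ∑ v ∈ univ.erase x, (if v ∈ P then 1 else 0) + (if x ∈ P then 1 else 0) = #P := by
    rw [Finset.sum_erase_add _ _ (mem_univ x)]
    simp
  have hcardQ : ∑ v ∈ univ.erase x, (if v ∈ Q then 1 else 0) ≤ #Q := by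
    calc ∑ v ∈ univ.erase x, (if v ∈ Q then 1 else 0)
        ≤ ∑ v ∈ univ, (if v ∈ Q then 1 else 0) :=
          Finset.sum_le_sum_of_subset (Finset.erase_subset _ _)
      _ = #Q := by simp
  refine ⟨y, ?_⟩
  show #P ≤ #Q
  by_cases hyx' : adj y x
  · -- the extra unit comes from the block of `k`
    have hky : k ≠ y := by
      rintro rfl
      exact hasym _ _ hxk hyx'
    have hknonsep : ¬ sep k := by
      rintro ⟨h1, h2⟩
      by_cases hyk : adj y k
      · exact h1 ((hmemP k).2 hyk)
      · exact h2 ((hmemQ k).2 ⟨hky, hyk, x, hyx', hxk⟩)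
    set f : V → ℕ := fun v => (if v ∈ P then 1 else 0) + (if v = k then 1 else 0) with hf
    set g : V → ℕ := fun v => if v ∈ Q then 1 else 0 with hg
    have hw : ∀ s, sep s → f s ≤ g s := by
      intro s hs
      have hsk : s ≠ k := by
        rintro rfl
        exact hknonsep hs
      simp [hf, hs.1, hsk]
    have hblock : ∀ A B s C, L0 ++ [y] = A ++ (B ++ s :: C) → sep s → (∀ b ∈ B, ¬ sep b) →
        (B.map f).sum ≤ (B.map g).sum := by
      intro A B s C hdec hs hB
      have h1 := key A B s C hdec hs hB
      have hsk : s ≠ k := by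
        rintro rfl
        exact hknonsep hs
      have h2 := sum_ind_le_one k B (hBnodup A B s C hdec)
      simp only [hsk, if_false, List.map_const', List.sum_replicate, smul_zero, add_zero] at h1
      simp only [hf, hg]
      rw [List.sum_map_add]
      generalize (B.map (fun v => if v ∈ P then 1 else 0)).sum = a at h1 ⊢
      generalize (B.map (fun v => if v = k then 1 else 0)).sum = c at h1 h2 ⊢
      generalize (B.map (fun v => if v ∈ Q then 1 else 0)).sum = b at h1 ⊢
      rcases Nat.le_one_iff_eq_zero_or_eq_one.1 h2 with rfl | rfl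
      · exact Nat.le_of_mul_le_mul_left h1 hNpos
      · have : N * a < N * b := by omega
        exact Nat.lt_of_mul_lt_mul_left this
    have hres := blocks sep f g hw L0 y hblock hysep L0 [] [] (by simp) (by simp)
    have hfy := hw y hysep
    have hsum : (L.map f).sum ≤ (L.map g).sum := by
      rw [hL0]
      simp only [List.map_append, List.sum_append, List.map_cons, List.sum_cons, List.map_nil,
        List.sum_nil] at hres ⊢
      omega
    rw [hsumL, hsumL] at hsum
    simp only [hf, hg] at hsum hcardQ hcardP
    rw [Finset.sum_add_distrib] at hsum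
    have hk1 : ∑ v ∈ univ.erase x, (if v = k then 1 else 0) = 1 := by
      rw [Finset.sum_ite_eq']
      simp [hkx]
    have hxP : x ∈ P := (hmemP x).2 hyx'
    simp only [hxP, if_true] at hcardP
    omega
  · set f : V → ℕ := fun v => if v ∈ P then 1 else 0 with hf
    set g : V → ℕ := fun v => if v ∈ Q then 1 else 0 with hg
    have hw : ∀ s, sep s → f s ≤ g s := by
      intro s hs
      simp [hf, hs.1]
    have hblock : ∀ A B s C, L0 ++ [y] = A ++ (B ++ s :: C) → sep s → (∀ b ∈ B, ¬ sep b) →
        (B.map f).sum ≤ (B.map g).sum := by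
      intro A B s C hdec hs hB
      have h1 := key A B s C hdec hs hB
      have h2 := hlen A B s C hdec
      have h3 : (B.map (fun _ => if s = k then 1 else 0)).sum ≤ B.length := by
        by_cases hsk : s = k <;> simp [hsk]
      simp only [hf, hg]
      generalize (B.map (fun v => if v ∈ P then 1 else 0)).sum = a at h1 ⊢
      generalize (B.map (fun v => if v = k then 1 else 0)).sum = c at h1 ⊢
      generalize (B.map (fun v => if v ∈ Q then 1 else 0)).sum = b at h1 ⊢
      generalize (B.map (fun _ => if s = k then 1 else 0)).sum = e at h1 h3 ⊢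
      have : N * a < N * (b + 1) := by
        rw [Nat.mul_add]
        omega
      have := Nat.lt_of_mul_lt_mul_left this
      omega
    have hres := blocks sep f g hw L0 y hblock hysep L0 [] [] (by simp) (by simp)
    have hfy := hw y hysep
    have hsum : (L.map f).sum ≤ (L.map g).sum := by
      rw [hL0]
      simp only [List.map_append, List.sum_append, List.map_cons, List.sum_cons, List.map_nil,
        List.sum_nil] at hres ⊢
      omega
    rw [hsumL, hsumL] at hsum
    simp only [hf, hg] at hsum hcardQ hcardP
    have hxP : x ∉ P := fun h => hyx' ((hmemP x).1 h)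
    simp only [hxP, if_false] at hcardP
    omega

theorem general (hasym : ∀ u v, adj u v → ¬ adj v u) (x : V)
    (hgood : ∀ a b, a ≠ x → b ≠ x → Missing adj a b →
      (∀ v, v ≠ x → adj v a → Near adj v b) ∨ (∀ v, v ≠ x → adj v b → Near adj v a)) :
    ∃ v, #(outN adj v) ≤ #(outN2 adj v) := by
  by_cases hsink : ∃ k, adj x k
  · obtain ⟨k, hk⟩ := hsink
    exact core adj hasym x k hk hgood
  · refine ⟨x, ?_⟩
    have : outN adj x = ∅ := by
      ext u
      simp only [outN, mem_filter, mem_univ, true_and, notMem_empty, iff_false]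
      exact fun h => hsink ⟨u, h⟩
    simp [this]

theorem threshold (hasym : ∀ u v, adj u v → ¬ adj v u) (x : V)
    (hthr : ∀ a b c d, a ≠ x → b ≠ x → c ≠ x → d ≠ x → Missing adj a b → Missing adj c d →
      (adj a c ∨ adj c a) → (adj b d ∨ adj d b) → False) :
    ∃ v, #(outN adj v) ≤ #(outN2 adj v) := by
  apply general adj hasym x
  intro a b hax hbx hab
  by_contra hcon
  push Not at hcon
  obtain ⟨⟨v, hvx, hva, hvb⟩, ⟨v', hv'x, hv'b, hv'a⟩⟩ := hcon
  have hmiss : Missing adj v v' := by
    refine ⟨?_, ?_, ?_⟩
    · rintro rfl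
      exact hvb (Or.inl hv'b)
    · intro h
      exact hvb (Or.inr ⟨v', h, hv'b⟩)
    · intro h
      exact hv'a (Or.inr ⟨v, h, hva⟩)
  exact hthr a b v v' hax hbx hvx hv'x hab hmiss (Or.inr hva) (Or.inr hv'b)

theorem twoCentres (hasym : ∀ u v, adj u v → ¬ adj v u) (x y : V)
    (htour : ∀ a b, a ≠ x → a ≠ y → b ≠ x → b ≠ y → a ≠ b → adj a b ∨ adj b a) :
    ∃ v, #(outN adj v) ≤ #(outN2 adj v) := by
  apply threshold adj hasym x
  intro a b c d hax hbx hcx hdx hab hcd hac hbd
  have h1 : a = y ∨ b = y := by
    by_contra hcon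
    push Not at hcon
    rcases htour a b hax hcon.1 hbx hcon.2 hab.1 with h | h
    · exact hab.2.1 h
    · exact hab.2.2 h
  have h2 : c = y ∨ d = y := by
    by_contra hcon
    push Not at hcon
    rcases htour c d hcx hcon.1 hdx hcon.2 hcd.1 with h | h
    · exact hcd.2.1 h
    · exact hcd.2.2 h
  rcases h1 with rfl | rfl
  · rcases h2 with rfl | rfl
    · rcases hac with h | h <;> exact hasym _ _ h h
    · rcases hac with h | h
      · exact hcd.2.2 h
      · exact hcd.2.1 h
  · rcases h2 with rfl | rfl
    · rcases hbd with h | h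
      · exact hcd.2.1 h
      · exact hcd.2.2 h
    · rcases hbd with h | h <;> exact hasym _ _ h h

end core

/-- Seymour's second neighbourhood conjecture for oriented graphs that are one vertex away from
having only good missing edges; in particular when the missing graph minus one vertex is a
threshold graph, and when deleting two vertices leaves a tournament. -/
theorem result {V : Type*} [Fintype V] [DecidableEq V] (adj : V → V → Prop) [DecidableRel adj]
    (hasym : ∀ u v, adj u v → ¬ adj v u) (x : V) :
    ((∀ a b, a ≠ x → b ≠ x → Missing adj a b →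
        (∀ v, v ≠ x → adj v a → Near adj v b) ∨ (∀ v, v ≠ x → adj v b → Near adj v a)) →
      ∃ v, #(outN adj v) ≤ #(outN2 adj v)) ∧
    ((∀ a b c d, a ≠ x → b ≠ x → c ≠ x → d ≠ x → Missing adj a b → Missing adj c d →
        (adj a c ∨ adj c a) → (adj b d ∨ adj d b) → False) →
      ∃ v, #(outN adj v) ≤ #(outN2 adj v)) ∧
    (∀ y, (∀ a b, a ≠ x → a ≠ y → b ≠ x → b ≠ y → a ≠ b → adj a b ∨ adj b a) →
      ∃ v, #(outN adj v) ≤ #(outN2 adj v)) :=
  ⟨general adj hasym x, threshold adj hasym x, fun y => twoCentres adj hasym x y⟩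

end Vale.Agent.Results.P038.NearThreshold
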