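import Mathlib
import Vale.Agent.Results.P038.AdditiveError
import Vale.Agent.Results.P038.NearThreshold
import Vale.Agent.Results.P038.CliqueFreeRatio

/-!
# P038 (Seymour's second neighbourhood conjecture): our results in one statement

For every finite oriented graph `D`:
1. exact form of the conjecture if for some vertex `x` all missing edges of `D - x` are good relative to
   `D - x`; in particular if the missing graph of `D - x` is a threshold graph, and if `D - {x, y}` is
   a tournament;
2. additive error `|R| - 1` (resp. `|R| - 2`) if the same holds after deleting a vertex set `R`;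
3. ratio `r / (2 (r - 1))` if the underlying graph has no `r + 1` pairwise adjacent vertices.
-/

namespace Vale.Agent.Results.P038.Combined

open Finset

/-- First out-neighbourhood of `v`. -/
def outN {V : Type*} [Fintype V] (adj : V → V → Prop) [DecidableRel adj] (v : V) : Finset V :=
  univ.filter (fun u => adj v u)

/-- Second out-neighbourhood of `v`: vertices at directed distance exactly two. -/
def outN2 {V : Type*} [Fintype V] [DecidableEq V] (adj : V → V → Prop) [DecidableRel adj]
    (v : V) : Finset V :=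
  univ.filter (fun w => w ≠ v ∧ ¬ adj v w ∧ ∃ u, adj v u ∧ adj u w)

/-- `a` and `b` are distinct and joined by no arc (a missing edge). -/
def Missing {V : Type*} (adj : V → V → Prop) (a b : V) : Prop :=
  a ≠ b ∧ ¬ adj a b ∧ ¬ adj b a

/-- `b` is reached from `v` by a directed path of length one or two. -/
def Near {V : Type*} (adj : V → V → Prop) (v b : V) : Prop :=
  adj v b ∨ ∃ m, adj v m ∧ adj m b

theorem result {V : Type*} [Fintype V] [DecidableEq V] (adj : V → V → Prop) [DecidableRel adj]
    (hasym : ∀ u v, adj u v → ¬ adj v u) :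
    (∀ x : V,
      ((∀ a b, a ≠ x → b ≠ x → Missing adj a b →
          (∀ v, v ≠ x → adj v a → Near adj v b) ∨ (∀ v, v ≠ x → adj v b → Near adj v a)) →
        ∃ v, #(outN adj v) ≤ #(outN2 adj v)) ∧
      ((∀ a b c d, a ≠ x → b ≠ x → c ≠ x → d ≠ x → Missing adj a b → Missing adj c d →
          (adj a c ∨ adj c a) → (adj b d ∨ adj d b) → False) →
        ∃ v, #(outN adj v) ≤ #(outN2 adj v)) ∧
      (∀ y, (∀ a b, a ≠ x → a ≠ y → b ≠ x → b ≠ y → a ≠ b → adj a b ∨ adj b a) →
        ∃ v, #(outN adj v) ≤ #(outN2 adj v))) ∧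
    (∀ R : Finset V,
      (R.Nonempty → (∀ a b, a ∉ R → b ∉ R → Missing adj a b →
          (∀ v, v ∉ R → adj v a → Near adj v b) ∨ (∀ v, v ∉ R → adj v b → Near adj v a)) →
        ∃ v, #(outN adj v) + 1 ≤ #(outN2 adj v) + #R) ∧
      (R.Nonempty → (∀ a b c d, a ∉ R → b ∉ R → c ∉ R → d ∉ R → Missing adj a b →
          Missing adj c d → (adj a c ∨ adj c a) → (adj b d ∨ adj d b) → False) →
        ∃ v, #(outN adj v) + 1 ≤ #(outN2 adj v) + #R) ∧
      (2 ≤ #R → (∀ a b, a ∉ R → b ∉ R → a ≠ b → adj a b ∨ adj b a) →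
        ∃ v, #(outN adj v) + 2 ≤ #(outN2 adj v) + #R)) ∧
    (Nonempty V → ∀ r : ℕ, 2 ≤ r →
      (∀ s : Finset V, #s = r + 1 → ∃ x ∈ s, ∃ y ∈ s, x ≠ y ∧ ¬ adj x y ∧ ¬ adj y x) →
      ∃ v, r * #(outN adj v) ≤ 2 * (r - 1) * #(outN2 adj v)) := by
  refine ⟨fun x => ?_, fun R => ?_, fun hne r hr hfree => ?_⟩
  · exact Vale.Agent.Results.P038.NearThreshold.result adj hasym x
  · exact Vale.Agent.Results.P038.AdditiveError.result adj hasym R
  · exact Vale.Agent.Results.P038.CliqueFreeRatio.result adj hasym r hr hfree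

end Vale.Agent.Results.P038.Combined
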